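import Vale.Agent.P183.SL2

/-!
# P183: the case of a large root subgroup
-/

open Matrix MatrixGroups

namespace Vale.Agent.P183

variable {F : Type} [Field F] [CharP F 2]

/-- `SL(2,Q)` for a subfield `Q` -/
def SQ (Q : Subfield F) : Subgroup SL(2, F) where
  carrier := {g | g 0 0 ∈ Q ∧ g 0 1 ∈ Q ∧ g 1 0 ∈ Q ∧ g 1 1 ∈ Q}
  one_mem' := ⟨Q.one_mem, Q.zero_mem, Q.zero_mem, Q.one_mem⟩
  mul_mem' := fun {a b} ha hb => by
    simp only [Set.mem_setOf_eq, mul_app] at *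
    obtain ⟨a1, a2, a3, a4⟩ := ha
    obtain ⟨b1, b2, b3, b4⟩ := hb
    refine ⟨?_, ?_, ?_, ?_⟩ <;> exact Q.add_mem (Q.mul_mem ‹_› ‹_›) (Q.mul_mem ‹_› ‹_›)
  inv_mem' := fun {a} ha => by
    simp only [Set.mem_setOf_eq, inv00, inv01, inv10, inv11] at *
    exact ⟨ha.2.2.2, Q.neg_mem ha.2.1, Q.neg_mem ha.2.2.1, ha.1⟩

theorem mem_SQ {Q : Subfield F} {g : SL(2, F)} :
    g ∈ SQ Q ↔ g 0 0 ∈ Q ∧ g 0 1 ∈ Q ∧ g 1 0 ∈ Q ∧ g 1 1 ∈ Q := Iff.rfl

theorem uu_mem_SQ {Q : Subfield F} {a : F} : uu a ∈ SQ Q ↔ a ∈ Q := by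
  simp [mem_SQ, Q.one_mem, Q.zero_mem]

theorem ww_mem_SQ {Q : Subfield F} : (ww : SL(2, F)) ∈ SQ Q := by
  simp [mem_SQ, Q.one_mem, Q.zero_mem]

theorem conj_upper {h : SL(2, F)} (h10 : h 1 0 = 0) (c : F) : h * uu c * h⁻¹ = uu (h 0 0 ^ 2 * c) := by
  have hd := det2 h
  rw [h10] at hd
  rw [mul_inv_eq_iff_eq_mul]
  apply ext2 <;> simp only [mul_app, uu00, uu01, uu10, uu11, h10]
  · ring
  · linear_combination (-(h 0 0 * c)) * hd
  · ring
  · ring

theorem upper_of_inter {X : SL(2, F)} {a b : F} (hb : b ≠ 0) (h : X * uu a = uu b * X) : X 1 0 = 0 := by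
  have e := congrArg (fun g => g 0 0) h
  simp only [mul_app, uu00, uu01, uu10, uu11] at e
  apply mul_left_cancel₀ hb
  linear_combination -e

theorem SQ_le {K : Subgroup SL(2, F)} (hw : ww ∈ K) {Q : Subfield F} (hQ : ∀ a ∈ Q, uu a ∈ K) : SQ Q ≤ K := by
  have key : ∀ g ∈ SQ Q, g 1 0 ≠ 0 → g ∈ K := fun g hg hc => by
    obtain ⟨a1, a2, a3, a4⟩ := hg
    have hd := det2 g
    have h2 := two0 (F := F)
    have e : g = uu (g 0 0 / g 1 0) * (uu (g 1 0)⁻¹ * (ww * uu (g 1 0) * ww) * uu (g 1 0)⁻¹) *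
        uu (g 1 1 / g 1 0) := by
      have hci : g 1 0 * (g 1 0)⁻¹ = 1 := mul_inv_cancel₀ hc
      simp only [div_eq_mul_inv]
      generalize (g 1 0)⁻¹ = ci at hci
      apply ext2 <;> simp only [mul_app, uu00, uu01, uu10, uu11, ww00, ww01, ww10, ww11] <;> grind
    rw [e]
    exact K.mul_mem (K.mul_mem (hQ _ (Q.div_mem a1 a3)) (K.mul_mem (K.mul_mem (hQ _ (Q.inv_mem a3))
      (K.mul_mem (K.mul_mem hw (hQ _ a3)) hw)) (hQ _ (Q.inv_mem a3)))) (hQ _ (Q.div_mem a4 a3))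
  intro g hg
  by_cases hc : g 1 0 = 0
  · have h1 : g * ww ∈ K := key _ ((SQ Q).mul_mem hg ww_mem_SQ) (by
      have hd := det2 g
      simp only [mul_app, ww00, ww10]
      intro h0
      have : g 1 1 = 0 := by linear_combination h0
      rw [hc, this] at hd
      simp at hd)
    have := K.mul_mem h1 hw
    rwa [mul_assoc, ww_sq, mul_one] at this
  · exact key g hg hc

variable [Fintype F]

section CaseB

variable {K : Subgroup SL(2, F)} (hu : uu 1 ∈ K) (hw : ww ∈ K)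
include hw

theorem caseB_scale {a b : F} (ha : uu a ∈ K) (hb : uu b ∈ K) (ha0 : a ≠ 0) (hb0 : b ≠ 0) :
    ∃ t : F, t ^ 2 * a = b ∧ ∀ c, uu c ∈ K → uu (t ^ 2 * c) ∈ K := by
  have hv := (invo_uu hb0).conj (ww : SL(2, F))
  have hwi : (ww : SL(2, F))⁻¹ = ww := inv_eq_of_mul_eq_one_right ww_sq
  obtain ⟨s, hs, -, h2⟩ := exists_conj K hv.1 (K.mul_mem (K.mul_mem hw hb) (K.inv_mem hw)) ha ha0 hv.tr.1
    (by rw [hwi]; simpa [mul_app] using hb0)
  have h3 : (ww * s) * uu a = uu b * (ww * s) := by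
    rw [mul_assoc, h2, hwi, ← mul_assoc, ← mul_assoc, ← mul_assoc, ww_sq, one_mul, mul_assoc]
  have h4 := upper_of_inter hb0 h3
  have hm := K.mul_mem hw hs
  refine ⟨(ww * s : SL(2, F)) 0 0, ?_, fun c hc => ?_⟩
  · have h5 := conj_upper h4 a
    rw [h3, mul_assoc, mul_inv_cancel, mul_one] at h5
    exact (congrArg (fun g => g 0 1) h5).symm
  · rw [← conj_upper h4 c]
    exact K.mul_mem (K.mul_mem hm hc) (K.inv_mem hm)

include hu

/-- the root subfield of `K` -/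
def rootField : Subfield F where
  carrier := {a | uu a ∈ K}
  one_mem' := hu
  zero_mem' := by simp only [Set.mem_setOf_eq, uu_zero]; exact K.one_mem
  add_mem' := fun {a b} ha hb => by
    simp only [Set.mem_setOf_eq] at *
    rw [← uu_mul]; exact K.mul_mem ha hb
  neg_mem' := fun {a} ha => by
    simp only [Set.mem_setOf_eq] at *
    rwa [CharTwo.neg_eq]
  mul_mem' := fun {a b} ha hb => by
    simp only [Set.mem_setOf_eq] at *
    by_cases h0 : a = 0
    · rw [h0, zero_mul, uu_zero]; exact K.one_mem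
    · obtain ⟨t, h1, h2⟩ := caseB_scale hw hu ha one_ne_zero h0
      rw [mul_one] at h1
      rw [← h1]; exact h2 b hb
  inv_mem' := fun a ha => by
    simp only [Set.mem_setOf_eq] at *
    by_cases h0 : a = 0
    · rw [h0, _root_.inv_zero, uu_zero]; exact K.one_mem
    · obtain ⟨t, h1, h2⟩ := caseB_scale hw ha hu h0 one_ne_zero
      have := h2 1 hu
      rwa [mul_one, eq_inv_of_mul_eq_one_left h1] at this

theorem mem_rootField {a : F} : a ∈ rootField hu hw ↔ uu a ∈ K := Iff.rfl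

omit hu hw in
theorem sqrt_mem {Q : Subfield F} {t : F} (h : t ^ 2 ∈ Q) : t ∈ Q := by
  have h2 := two0 (F := F)
  have hinj : ∀ x y : F, x ^ 2 = y ^ 2 → x = y := fun x y hxy => by
    have : (x - y) ^ 2 = 0 := by linear_combination hxy + (y ^ 2 - x * y) * h2
    exact sub_eq_zero.1 (pow_eq_zero_iff (two_ne_zero) |>.1 this)
  have hs : Function.Surjective (fun x : Q => x ^ 2) :=
    Finite.surjective_of_injective fun x y hxy => Subtype.ext (hinj _ _ (congrArg Subtype.val hxy))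
  obtain ⟨s, hs⟩ := hs ⟨_, h⟩
  rw [← hinj s t (congrArg Subtype.val hs)]
  exact s.2

theorem caseB_upper {h : SL(2, F)} (hK : h ∈ K) (h10 : h 1 0 = 0) : h ∈ SQ (rootField hu hw) := by
  set Q := rootField hu hw
  have hd := det2 h
  rw [h10, mul_zero, sub_zero] at hd
  have ht : h 0 0 ∈ Q := by
    apply sqrt_mem
    have := K.mul_mem (K.mul_mem hK hu) (K.inv_mem hK)
    rwa [conj_upper h10, mul_one] at this
  have ht' : h 1 1 ∈ Q := by rw [eq_inv_of_mul_eq_one_right hd]; exact Q.inv_mem ht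
  let D : SL(2, F) := ⟨!![h 1 1, 0; 0, h 0 0], by simp [det_fin_two, mul_comm, hd]⟩
  have hD : D ∈ SQ Q := ⟨ht', Q.zero_mem, Q.zero_mem, ht⟩
  have hDK : D ∈ K := SQ_le hw (fun a ha => ha) hD
  have e : D * h = uu (h 1 1 * h 0 1) := by
    have d00 : D 0 0 = h 1 1 := rfl
    have d01 : D 0 1 = 0 := rfl
    have d10 : D 1 0 = 0 := rfl
    have d11 : D 1 1 = h 0 0 := rfl
    apply ext2 <;> simp only [mul_app, uu00, uu01, uu10, uu11, h10, d00, d01, d10, d11]
    · linear_combination hd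
    · ring
    · ring
    · linear_combination hd
  have h1 : h 1 1 * h 0 1 ∈ Q := by
    change uu _ ∈ K
    rw [← e]; exact K.mul_mem hDK hK
  refine ⟨ht, ?_, h10 ▸ Q.zero_mem, ht'⟩
  have : h 0 1 = h 0 0 * (h 1 1 * h 0 1) := by linear_combination (-h 0 1) * hd
  rw [this]; exact Q.mul_mem ht h1

theorem caseB {a0 : F} (ha : uu a0 ∈ K) (ha0 : a0 ≠ 0) (ha1 : a0 ≠ 1) : K = SQ (rootField hu hw) := by
  set Q := rootField hu hw
  have hle : SQ Q ≤ K := SQ_le hw (fun a ha => ha)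
  refine le_antisymm (fun g hg => ?_) hle
  by_cases hc : g 1 0 = 0
  · exact caseB_upper hu hw hg hc
  have h2 := two0 (F := F)
  have key : ∀ b, uu b ∈ K → b ≠ 0 → ∃ s ∈ K, s * s = 1 ∧ s * uu 1 = g * uu b * g⁻¹ * s ∧ (g⁻¹ * s) 1 0 = 0 :=
    fun b hb hb0 => by
      have hv := (invo_uu hb0).conj g
      obtain ⟨s, hs, s1, s2⟩ := exists_conj K hv.1 (K.mul_mem (K.mul_mem hg hb) (K.inv_mem hg)) hu one_ne_zero
        hv.tr.1 (by
          simp only [mul_app, uu00, uu01, uu10, uu11, inv00, inv10]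
          intro h0
          apply mul_ne_zero (mul_ne_zero hc hc) hb0
          linear_combination -h0)
      refine ⟨s, hs, s1, s2, upper_of_inter (a := 1) hb0 ?_⟩
      rw [mul_assoc, s2]; group
  obtain ⟨s, hs, s1, s2, s3⟩ := key 1 hu one_ne_zero
  obtain ⟨s', hs', s1', s2', s3'⟩ := key a0 ha ha0
  have hsi : s⁻¹ = s := inv_eq_of_mul_eq_one_right s1
  have hsi' : s'⁻¹ = s' := inv_eq_of_mul_eq_one_right s1'
  have e1 : s * s' = (g⁻¹ * s)⁻¹ * (g⁻¹ * s') := by rw [_root_.mul_inv_rev, hsi]; group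
  have e2 : s * s' * g = g * ((g⁻¹ * s) * (g⁻¹ * s')⁻¹) := by rw [_root_.mul_inv_rev, hsi']; group
  have u1 : (s * s') 1 0 = 0 := by rw [e1, mul_app, inv10, s3, s3']; simp
  have u2 : ((g⁻¹ * s) * (g⁻¹ * s')⁻¹) 1 0 = 0 := by rw [mul_app, inv10, s3, s3']; simp
  generalize (g⁻¹ * s) * (g⁻¹ * s')⁻¹ = Y at e2 u2
  have hh := caseB_upper hu hw (K.mul_mem hs hs') u1
  have hne : s * s' ≠ 1 := fun h => by
    have e : s' = s := by rw [← hsi]; exact (eq_inv_of_mul_eq_one_right h)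
    rw [e, s2] at s2'
    have e3 : uu (1 : F) = uu a0 := mul_left_cancel (mul_right_cancel (mul_right_cancel s2'))
    exact ha1 (congrArg (fun g => g 0 1) e3).symm
  generalize s * s' = h at e2 u1 hh hne
  have f0 := congrArg (fun g => g 0 0) e2
  have f1 := congrArg (fun g => g 1 0) e2
  simp only [mul_app, u1, u2] at f0 f1
  have hY : Y 0 0 = h 1 1 := by
    apply mul_left_cancel₀ hc
    linear_combination -f1
  rw [hY] at f0
  have hd := det2 h
  rw [u1] at hd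
  have hp : g 0 0 / g 1 0 ∈ Q := by
    by_cases ht : h 1 1 - h 0 0 = 0
    · exfalso
      have t1 : h 1 1 = h 0 0 := sub_eq_zero.1 ht
      have t2 : h 0 1 = 0 := by
        apply mul_right_cancel₀ hc
        rw [t1] at f0
        linear_combination f0
      have t3 : h 0 0 = 1 := by
        have : (h 0 0 - 1) ^ 2 = 0 := by
          rw [t1] at hd
          linear_combination hd + (1 - h 0 0) * h2
        exact sub_eq_zero.1 (pow_eq_zero_iff (two_ne_zero) |>.1 this)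
      exact hne (ext2 (by simp [t3]) (by simp [t2]) (by simp [u1]) (by simp [t1, t3]))
    · have : g 0 0 / g 1 0 = h 0 1 / (h 1 1 - h 0 0) := by
        field_simp
        linear_combination -f0
      rw [this]
      exact Q.div_mem hh.2.1 (Q.sub_mem hh.2.2.2 hh.1)
  have hm : ww * (uu (g 0 0 / g 1 0) * g) ∈ SQ Q := by
    refine caseB_upper hu hw (K.mul_mem hw (K.mul_mem hp hg)) ?_
    simp only [mul_app, uu00, uu01, uu10, uu11, ww10, ww11]
    field_simp
    linear_combination g 0 0 * h2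
  have := (SQ Q).mul_mem (uu_mem_SQ.2 hp) ((SQ Q).mul_mem ww_mem_SQ hm)
  rwa [← mul_assoc ww, ww_sq, one_mul, ← mul_assoc, uu_sq, one_mul] at this

end CaseB

end Vale.Agent.P183
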