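import Mathlib

/-!
# P183: finite algebras, congruences and the seven-element lattice `L₇`
-/

namespace Vale.Agent.P183

/-- a total operation of finite arity on `A`: the arity `k` and a map `A^k → A` -/
abbrev Op (A : Type) : Type := Σ k : ℕ, (Fin k → A) → A

/-- the equivalence relation `r` is compatible with every operation of the list -/
def IsCong {A : Type} (ops : List (Op A)) (r : Setoid A) : Prop :=
  ∀ f ∈ ops, ∀ x y : Fin f.1 → A, (∀ i, r (x i) (y i)) → r (f.2 x) (f.2 y)

/-- The order of the seven-element lattice `L₇`: the product of chains `2 × 3` (elements `some p`, with the
product order) together with one more element `none` lying strictly between the bottom `(0,0)` and the top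
`(1,2)` and incomparable with the other four elements. -/
def L7le : Option (Fin 2 × Fin 3) → Option (Fin 2 × Fin 3) → Prop
  | some p, some q => p ≤ q
  | some p, none => p = (0, 0)
  | none, some q => q = (1, 2)
  | none, none => True

end Vale.Agent.P183
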