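import Vale.Agent.P183.Torus
import Vale.Agent.P183.Defs

/-!
# P183: the interval `[SL(2,2), SL(2,64)]`
-/

open Matrix MatrixGroups

namespace Vale.Agent.P183

variable {F : Type} [Field F] [CharP F 2] [Fintype F] {ω : F} (hω : ω ^ 2 + ω + 1 = 0)

theorem classA {K : Subgroup SL(2, F)} (hu : uu 1 ∈ K) (hw : ww ∈ K) (hQ : ∀ a : F, uu a ∈ K → a = 0 ∨ a = 1) :
    ∃ d, 3 ∣ d ∧ d ∣ Fintype.card F - 1 ∧ K = DD hω d := by
  classical
  let N : Subgroup Fˣ := K.comap (ph hω)
  have hN : ∀ l : Fˣ, l ∈ N ↔ l ^ Nat.card N = 1 := by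
    have hsub : (N : Set Fˣ).toFinset ⊆ Finset.univ.filter (fun a : Fˣ => a ^ Nat.card N = 1) := by
      intro l hl
      simp only [Set.mem_toFinset, SetLike.mem_coe] at hl
      simp only [Finset.mem_filter, Finset.mem_univ, true_and]
      exact congrArg Subtype.val (pow_card_eq_one' (x := (⟨l, hl⟩ : N)))
    have hc := IsCyclic.card_pow_eq_one_le (α := Fˣ) (n := Nat.card N) Nat.card_pos
    have heq := Finset.eq_of_subset_of_card_le hsub (by
      rw [Set.toFinset_card, ← Nat.card_eq_fintype_card]; exact hc)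
    intro l
    have := Finset.ext_iff.1 heq l
    simpa using this
  refine ⟨Nat.card N, ?_, ?_, le_antisymm (fun g hg => ?_) (DD_le hω hw fun l hl => (hN l).2 hl)⟩
  · rw [← om_order hω, orderOf_dvd_iff_pow_eq_one, ← hN]
    change ph hω (om hω) ∈ K
    rw [ph_om]; exact K.mul_mem hu hw
  · rw [← Fintype.card_units, ← Nat.card_eq_fintype_card]
    exact N.card_subgroup_dvd_card
  · rcases caseA hu hQ hw hg with h | h
    · obtain ⟨l, rfl⟩ := exists_ph hω h
      exact ⟨l, (hN l).1 hg, Or.inl rfl⟩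
    · obtain ⟨l, hl⟩ := exists_ph hω h
      refine ⟨l, (hN l).1 ?_, Or.inr (by rw [← hl, mul_assoc, ww_sq, mul_one])⟩
      change ph hω l ∈ K
      rw [← hl]; exact K.mul_mem hg hw

theorem subfield_eq {Q : Subfield F} {e : ℕ} (he : 0 < e) (h : Nat.card Q = 2 ^ e) : Q = Fx F e := by
  classical
  have hsub : (Q : Set F).toFinset ⊆ (Polynomial.X ^ 2 ^ e - Polynomial.X : Polynomial F).roots.toFinset := by
    intro x hx
    simp only [Set.mem_toFinset, SetLike.mem_coe] at hx
    have h1 := congrArg Subtype.val (FiniteField.pow_card (⟨x, hx⟩ : Q))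
    rw [← Nat.card_eq_fintype_card, h] at h1
    rw [Multiset.mem_toFinset, Polynomial.mem_roots (FiniteField.X_pow_card_pow_sub_X_ne_zero F he.ne' one_lt_two)]
    simpa [sub_eq_zero] using h1
  have heq := Finset.eq_of_subset_of_card_le hsub (by
    rw [Set.toFinset_card, ← Nat.card_eq_fintype_card]
    change _ ≤ Nat.card Q
    rw [h]
    refine (Multiset.toFinset_card_le _).trans ((Polynomial.card_roots' _).trans ?_)
    rw [FiniteField.X_pow_card_pow_sub_X_natDegree_eq F he.ne' one_lt_two])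
  ext x
  have := Finset.ext_iff.1 heq x
  rw [Multiset.mem_toFinset, Polynomial.mem_roots (FiniteField.X_pow_card_pow_sub_X_ne_zero F he.ne' one_lt_two)]
    at this
  rw [mem_Fx]
  simpa [sub_eq_zero] using this

theorem subfield64 (h64 : Fintype.card F = 64) (Q : Subfield F) {a : F} (ha : a ∈ Q) (h0 : a ≠ 0) (h1 : a ≠ 1) :
    Q = Fx F 2 ∨ Q = Fx F 3 ∨ Q = Fx F 6 := by
  classical
  have hc : Nat.card F = Nat.card Q ^ Module.finrank Q F := Module.natCard_eq_pow_finrank
  rw [Nat.card_eq_fintype_card, h64] at hc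
  have h3 : 2 < Nat.card Q := by
    rw [Nat.card_eq_fintype_card, Fintype.two_lt_card_iff]
    exact ⟨0, 1, ⟨a, ha⟩, zero_ne_one, fun h => h0 (congrArg Subtype.val h).symm,
      fun h => h1 (congrArg Subtype.val h).symm⟩
  have hn : Module.finrank Q F ≠ 0 := Module.finrank_pos.ne'
  have hd : Nat.card Q ∣ 2 ^ 6 := by
    change Nat.card Q ∣ 64
    rw [hc]; exact dvd_pow_self _ hn
  obtain ⟨k, hk6, hk⟩ := (Nat.dvd_prime_pow Nat.prime_two).1 hd
  rw [hk, ← pow_mul] at hc
  have hk2 : 6 = k * Module.finrank Q F := Nat.pow_right_injective le_rfl hc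
  rw [hk] at h3
  have hk0 : 0 < k := by
    rcases k with _ | k
    · simp at h3
    · omega
  have := subfield_eq hk0 hk
  interval_cases k
  · simp at h3
  · exact Or.inl this
  · exact Or.inr (Or.inl this)
  · omega
  · omega
  · exact Or.inr (Or.inr this)

/-- torus orders -/
def dd : Option (Fin 2 × Fin 3) → ℕ
  | none => 3
  | some p => if p = (0, 0) then 3 else if p = (1, 0) then 21 else if p.1 = 0 then 9 else 63

/-- field degrees -/
def ee : Option (Fin 2 × Fin 3) → ℕ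
  | none => 2
  | some p => if p = (0, 2) then 3 else if p = (1, 2) then 6 else 1

/-- the seven subgroups -/
def KK (i : Option (Fin 2 × Fin 3)) : Subgroup SL(2, F) := if ee i = 1 then DD hω (dd i) else SQ (Fx F (ee i))

theorem Fx6 (h64 : Fintype.card F = 64) (x : F) : x ∈ Fx F 6 := by
  rw [mem_Fx]
  have := FiniteField.pow_card x
  rwa [h64] at this

theorem pow63 (h64 : Fintype.card F = 64) (l : Fˣ) : l ^ 63 = 1 := by
  classical
  have := pow_card_eq_one (x := l)
  rwa [Fintype.card_units, h64] at this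

theorem SQ6 (h64 : Fintype.card F = 64) (g : SL(2, F)) : g ∈ SQ (Fx F 6) :=
  ⟨Fx6 h64 _, Fx6 h64 _, Fx6 h64 _, Fx6 h64 _⟩

theorem cases7 (i : Option (Fin 2 × Fin 3)) : i = none ∨ i = some (0, 0) ∨ i = some (0, 1) ∨ i = some (0, 2) ∨
    i = some (1, 0) ∨ i = some (1, 1) ∨ i = some (1, 2) := by
  revert i; decide

theorem K_none : KK hω none = SQ (Fx F 2) := rfl
theorem K00 : KK hω (some (0, 0)) = DD hω 3 := rfl
theorem K01 : KK hω (some (0, 1)) = DD hω 9 := rfl
theorem K02 : KK hω (some (0, 2)) = SQ (Fx F 3) := rfl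
theorem K10 : KK hω (some (1, 0)) = DD hω 21 := rfl
theorem K11 : KK hω (some (1, 1)) = DD hω 63 := rfl
theorem K12 : KK hω (some (1, 2)) = SQ (Fx F 6) := rfl

theorem ph_mem_KK (h64 : Fintype.card F = 64) (i) (l : Fˣ) : ph hω l ∈ KK hω i ↔ l ^ dd i = 1 := by
  rcases cases7 i with rfl | rfl | rfl | rfl | rfl | rfl | rfl
  · exact ph_mem_F4 hω
  · exact ph_mem_DD hω
  · exact ph_mem_DD hω
  · exact ph_mem_F8 hω
  · exact ph_mem_DD hω
  · exact ph_mem_DD hω
  · exact ⟨fun _ => pow63 h64 l, fun _ => SQ6 h64 _⟩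

theorem uu_mem_KK (i) (a : F) : uu a ∈ KK hω i ↔ a ^ 2 ^ ee i = a := by
  rcases cases7 i with rfl | rfl | rfl | rfl | rfl | rfl | rfl
  · exact uu_mem_SQ.trans mem_Fx
  · exact uu_mem_DD hω (d := 3) (by norm_num)
  · exact uu_mem_DD hω (d := 9) (by norm_num)
  · exact uu_mem_SQ.trans mem_Fx
  · exact uu_mem_DD hω (d := 21) (by norm_num)
  · exact uu_mem_DD hω (d := 63) (by norm_num)
  · exact uu_mem_SQ.trans mem_Fx

theorem ww_mem_KK (i) : ww ∈ KK hω i := by
  unfold KK
  split_ifs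
  · exact ww_mem_DD hω _
  · exact ww_mem_SQ

theorem KK_le_iff (h64 : Fintype.card F = 64) (i j) : KK hω i ≤ KK hω j ↔ L7le i j := by
  classical
  constructor
  · intro h
    obtain ⟨ζ, hζ⟩ := IsCyclic.exists_ofOrder_eq_natCard (α := Fˣ)
    rw [Nat.card_eq_fintype_card, Fintype.card_units, h64] at hζ
    have a1 : 63 ∣ 63 / dd i * dd j := by
      have h1 : (ζ ^ (63 / dd i)) ^ dd i = 1 := by
        rw [← pow_mul, ← orderOf_dvd_iff_pow_eq_one, hζ]
        exact (by decide : ∀ i, 64 - 1 ∣ 63 / dd i * dd i) i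
      have h2 := (ph_mem_KK hω h64 j _).1 (h ((ph_mem_KK hω h64 i _).2 h1))
      rwa [← pow_mul, ← orderOf_dvd_iff_pow_eq_one, hζ] at h2
    have key : ∀ (k : Option (Fin 2 × Fin 3)) (l : Fˣ), (l : F) ^ 2 ^ ee k = l ↔ l ^ (2 ^ ee k - 1) = 1 := by
      intro k l
      have : 2 ^ ee k = 2 ^ ee k - 1 + 1 := (Nat.sub_add_cancel Nat.one_le_two_pow).symm
      rw [this, ← Units.val_pow_eq_pow_val, ← Units.ext_iff, pow_succ, mul_eq_right, Nat.add_sub_cancel]
    have a2 : 63 ∣ 63 / (2 ^ ee i - 1) * (2 ^ ee j - 1) := by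
      have h1 : (ζ ^ (63 / (2 ^ ee i - 1))) ^ (2 ^ ee i - 1) = 1 := by
        rw [← pow_mul, ← orderOf_dvd_iff_pow_eq_one, hζ]
        exact (by decide : ∀ i, 64 - 1 ∣ 63 / (2 ^ ee i - 1) * (2 ^ ee i - 1)) i
      have h2 := (key j _).1 ((uu_mem_KK hω j _).1 (h ((uu_mem_KK hω i _).2 ((key i _).2 h1))))
      rwa [← pow_mul, ← orderOf_dvd_iff_pow_eq_one, hζ] at h2
    clear h
    rcases cases7 i with rfl | rfl | rfl | rfl | rfl | rfl | rfl <;>
      rcases cases7 j with rfl | rfl | rfl | rfl | rfl | rfl | rfl <;>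
      first | (simp only [L7le]; decide) | exact absurd a1 (by decide) | exact absurd a2 (by decide) | trivial
  · intro h
    have hD : ∀ i j, ee i = 1 → dd i ∣ dd j → KK hω i ≤ KK hω j := fun i j h1 h2 => by
      rw [KK, if_pos h1]
      refine DD_le hω (ww_mem_KK hω j) fun l hl => (ph_mem_KK hω h64 j l).2 ?_
      obtain ⟨c, hc⟩ := h2
      rw [hc, pow_mul, hl, one_pow]
    rcases cases7 i with rfl | rfl | rfl | rfl | rfl | rfl | rfl <;>
      rcases cases7 j with rfl | rfl | rfl | rfl | rfl | rfl | rfl <;>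
      first
        | exact le_rfl
        | exact fun g _ => SQ6 h64 g
        | exact absurd h (by simp only [L7le]; decide)
        | exact hD _ _ (by decide) (by decide)

theorem classify (h64 : Fintype.card F = 64) {K : Subgroup SL(2, F)} (hK : KK hω (some (0, 0)) ≤ K) :
    ∃ i, K = KK hω i := by
  have hu : uu 1 ∈ K := hK ((uu_mem_KK hω _ _).2 (by simp))
  have hw : ww ∈ K := hK (ww_mem_KK hω _)
  by_cases hQ : ∀ a : F, uu a ∈ K → a = 0 ∨ a = 1
  · obtain ⟨d, h3, hd, rfl⟩ := classA hω hu hw hQ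
    rw [h64] at hd
    have hle := Nat.le_of_dvd (by norm_num) hd
    have : d = 3 ∨ d = 9 ∨ d = 21 ∨ d = 63 := by
      interval_cases d <;> simp_all
    rcases this with rfl | rfl | rfl | rfl
    · exact ⟨_, (K00 hω).symm⟩
    · exact ⟨_, (K01 hω).symm⟩
    · exact ⟨_, (K10 hω).symm⟩
    · exact ⟨_, (K11 hω).symm⟩
  · push Not at hQ
    obtain ⟨a, ha, h0, h1⟩ := hQ
    rw [caseB hu hw ha h0 h1]
    rcases subfield64 h64 (rootField hu hw) ha h0 h1 with h | h | h <;> rw [h]
    · exact ⟨_, (K_none hω).symm⟩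
    · exact ⟨_, (K02 hω).symm⟩
    · exact ⟨_, (K12 hω).symm⟩

theorem L7le_antisymm (i j) : L7le i j → L7le j i → i = j := by
  rcases cases7 i with rfl | rfl | rfl | rfl | rfl | rfl | rfl <;>
    rcases cases7 j with rfl | rfl | rfl | rfl | rfl | rfl | rfl <;> simp only [L7le] <;> decide

theorem bot_L7le (j) : L7le (some (0, 0)) j := by
  rcases cases7 j with rfl | rfl | rfl | rfl | rfl | rfl | rfl <;> simp only [L7le] <;> decide

theorem interval (h64 : Fintype.card F = 64) :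
    ∃ e : {K : Subgroup SL(2, F) // KK hω (some (0, 0)) ≤ K} ≃ Option (Fin 2 × Fin 3),
      ∀ K K', K.1 ≤ K'.1 ↔ L7le (e K) (e K') := by
  let f : Option (Fin 2 × Fin 3) → {K : Subgroup SL(2, F) // KK hω (some (0, 0)) ≤ K} :=
    fun i => ⟨KK hω i, (KK_le_iff hω h64 _ _).2 (bot_L7le i)⟩
  have hf : Function.Bijective f := by
    constructor
    · intro i j h
      have h' : KK hω i = KK hω j := congrArg Subtype.val h
      exact L7le_antisymm i j ((KK_le_iff hω h64 _ _).1 h'.le) ((KK_le_iff hω h64 _ _).1 h'.ge)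
    · rintro ⟨K, hK⟩
      obtain ⟨i, rfl⟩ := classify hω h64 hK
      exact ⟨i, rfl⟩
  refine ⟨(Equiv.ofBijective f hf).symm, fun K K' => ?_⟩
  obtain ⟨i, rfl⟩ := (Equiv.ofBijective f hf).surjective K
  obtain ⟨j, rfl⟩ := (Equiv.ofBijective f hf).surjective K'
  rw [Equiv.symm_apply_apply, Equiv.symm_apply_apply]
  exact KK_le_iff hω h64 i j

end Vale.Agent.P183
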