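import Vale.Agent.P183.Class

/-!
# P183: congruences of the coset space `G ⧸ H` form the interval `[H, G]`
-/

open Matrix MatrixGroups

namespace Vale.Agent.P183

section

variable {G : Type} [Group G] [Fintype G] (H : Subgroup G)

/-- the left translations as unary operations -/
noncomputable def cosetOps : List (Op (G ⧸ H)) :=
  (Finset.univ : Finset G).toList.map fun g => ⟨1, fun x => g • x 0⟩

theorem isCong_iff (r : Setoid (G ⧸ H)) :
    IsCong (cosetOps H) r ↔ ∀ (g : G) (x y : G ⧸ H), r x y → r (g • x) (g • y) := by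
  constructor
  · intro h g x y hxy
    exact h ⟨1, fun x => g • x 0⟩ (List.mem_map.2 ⟨g, by simp, rfl⟩) (fun _ => x) (fun _ => y) fun _ => hxy
  · intro h f hf x y hxy
    obtain ⟨g, -, rfl⟩ := List.mem_map.1 hf
    exact h g _ _ (hxy _)

/-- the stabilizer of the class of the base point -/
def toSub (r : {r : Setoid (G ⧸ H) // IsCong (cosetOps H) r}) : {K : Subgroup G // H ≤ K} :=
  ⟨{ carrier := {g | r.1 ((g : G) : G ⧸ H) ((1 : G) : G ⧸ H)}
     one_mem' := r.1.refl _
     mul_mem' := fun {a b} ha hb => by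
       have h := (isCong_iff H r.1).1 r.2 a _ _ hb
       simp only [MulAction.Quotient.smul_mk, smul_eq_mul, mul_one] at h
       exact r.1.trans h ha
     inv_mem' := fun {a} ha => by
       have h := (isCong_iff H r.1).1 r.2 a⁻¹ _ _ ha
       simp only [MulAction.Quotient.smul_mk, smul_eq_mul, mul_one, inv_mul_cancel] at h
       exact r.1.symm h },
   fun h hh => by
     have : ((h : G) : G ⧸ H) = ((1 : G) : G ⧸ H) := QuotientGroup.eq.2 (by simpa using hh)
     change r.1 _ _
     rw [this]⟩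

theorem rel_iff (r : {r : Setoid (G ⧸ H) // IsCong (cosetOps H) r}) (a b : G) :
    r.1 (a : G ⧸ H) (b : G ⧸ H) ↔ b⁻¹ * a ∈ (toSub H r).1 := by
  constructor
  · intro h
    have h1 := (isCong_iff H r.1).1 r.2 b⁻¹ _ _ h
    simp only [MulAction.Quotient.smul_mk, smul_eq_mul, inv_mul_cancel] at h1
    exact h1
  · intro h
    have h1 := (isCong_iff H r.1).1 r.2 b _ _ h
    simp only [MulAction.Quotient.smul_mk, smul_eq_mul, mul_one, mul_inv_cancel_left] at h1
    exact h1

theorem toSub_le_iff (r s : {r : Setoid (G ⧸ H) // IsCong (cosetOps H) r}) :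
    r.1 ≤ s.1 ↔ (toSub H r).1 ≤ (toSub H s).1 := by
  constructor
  · intro h g hg
    exact h hg
  · intro h x y hxy
    induction x using QuotientGroup.induction_on with | H a => ?_
    induction y using QuotientGroup.induction_on with | H b => ?_
    exact (rel_iff H s a b).2 (h ((rel_iff H r a b).1 hxy))

theorem toSub_bij : Function.Bijective (toSub H) := by
  constructor
  · intro r s h
    exact Subtype.ext (le_antisymm ((toSub_le_iff H r s).2 (by rw [h])) ((toSub_le_iff H s r).2 (by rw [h])))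
  · rintro ⟨K, hK⟩
    refine ⟨⟨Setoid.ker (Subgroup.quotientMapOfLE hK), (isCong_iff H _).2 fun g x y hxy => ?_⟩, ?_⟩
    · induction x using QuotientGroup.induction_on with | H a => ?_
      induction y using QuotientGroup.induction_on with | H b => ?_
      simp only [Setoid.ker_def, MulAction.Quotient.smul_mk, smul_eq_mul, Subgroup.quotientMapOfLE_apply_mk,
        QuotientGroup.eq] at hxy ⊢
      simpa [mul_assoc] using hxy
    · ext g
      change Setoid.ker (Subgroup.quotientMapOfLE hK) _ _ ↔ _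
      simp only [Setoid.ker_def, Subgroup.quotientMapOfLE_apply_mk, QuotientGroup.eq]
      simp

end

theorem main :
    (∃ (A : Type) (_ : Fintype A) (_ : Nonempty A) (ops : List (Op A))
      (e : {r : Setoid A // IsCong ops r} ≃ Option (Fin 2 × Fin 3)), ∀ r s, r.1 ≤ s.1 ↔ L7le (e r) (e s)) ∧
    ∃ (H : Subgroup SL(2, GaloisField 2 6)) (e : {K : Subgroup SL(2, GaloisField 2 6) // H ≤ K} ≃
      Option (Fin 2 × Fin 3)), ∀ K K', K.1 ≤ K'.1 ↔ L7le (e K) (e K') := by
  classical
  let _ : Fintype (GaloisField 2 6) := Fintype.ofFinite _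
  have h64 : Fintype.card (GaloisField 2 6) = 64 := by
    rw [← Nat.card_eq_fintype_card, GaloisField.card 2 6 (by norm_num)]; norm_num
  obtain ⟨ζ, hζ⟩ := IsCyclic.exists_ofOrder_eq_natCard (α := (GaloisField 2 6)ˣ)
  rw [Nat.card_eq_fintype_card, Fintype.card_units, h64] at hζ
  have h1 : ((ζ ^ 21 : (GaloisField 2 6)ˣ) : GaloisField 2 6) ≠ 1 := by
    rw [Ne, Units.val_eq_one, ← orderOf_dvd_iff_pow_eq_one, hζ]; norm_num
  have h3 : ((ζ ^ 21 : (GaloisField 2 6)ˣ) : GaloisField 2 6) ^ 3 = 1 := by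
    rw [← Units.val_pow_eq_pow_val, Units.val_eq_one, ← pow_mul, ← orderOf_dvd_iff_pow_eq_one, hζ]
  generalize ((ζ ^ 21 : (GaloisField 2 6)ˣ) : GaloisField 2 6) = ω at h1 h3
  have hω : ω ^ 2 + ω + 1 = 0 := by
    apply mul_left_cancel₀ (sub_ne_zero.2 h1)
    linear_combination h3
  obtain ⟨e, he⟩ := interval hω h64
  refine ⟨⟨SL(2, GaloisField 2 6) ⧸ KK hω (some (0, 0)), Fintype.ofFinite _, inferInstance, cosetOps _,
    (Equiv.ofBijective _ (toSub_bij _)).trans e, fun r s => ?_⟩, _, e, he⟩
  rw [toSub_le_iff]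
  exact he _ _

end Vale.Agent.P183
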