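import Mathlib

/-!
# P183: subgroups of `SL(2,F)`, `F` finite of characteristic two, containing `SL(2,2)`
-/

open Matrix MatrixGroups

namespace Vale.Agent.P183

variable {F : Type} [Field F] [CharP F 2]

theorem two0 : (2 : F) = 0 := CharP.cast_eq_zero F 2

/-- upper transvection -/
def uu (a : F) : SL(2, F) := ⟨!![1, a; 0, 1], by simp [det_fin_two]⟩

/-- the swap -/
def ww : SL(2, F) := ⟨!![0, 1; 1, 0], by
  simp only [det_fin_two, of_apply, cons_val', cons_val_zero, cons_val_one, cons_val_fin_one]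
  linear_combination (-1 : F) * two0 (F := F)⟩

theorem det2 (g : SL(2, F)) : g 0 0 * g 1 1 - g 0 1 * g 1 0 = 1 := by
  have := g.det_coe
  rwa [det_fin_two] at this

theorem mul_app (g h : SL(2, F)) (i j : Fin 2) : (g * h) i j = g i 0 * h 0 j + g i 1 * h 1 j := by
  have : (g * h) i j = ((g : Matrix (Fin 2) (Fin 2) F) * (h : Matrix (Fin 2) (Fin 2) F)) i j := rfl
  rw [this, mul_apply, Fin.sum_univ_two]

theorem ext2 {g h : SL(2, F)} (h00 : g 0 0 = h 0 0) (h01 : g 0 1 = h 0 1) (h10 : g 1 0 = h 1 0)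
    (h11 : g 1 1 = h 1 1) : g = h := by
  ext i j
  fin_cases i <;> fin_cases j <;> assumption

@[simp] theorem uu00 (a : F) : uu a 0 0 = 1 := rfl
@[simp] theorem uu01 (a : F) : uu a 0 1 = a := rfl
@[simp] theorem uu10 (a : F) : uu a 1 0 = 0 := rfl
@[simp] theorem uu11 (a : F) : uu a 1 1 = 1 := rfl
@[simp] theorem ww00 : (ww : SL(2, F)) 0 0 = 0 := rfl
@[simp] theorem ww01 : (ww : SL(2, F)) 0 1 = 1 := rfl
@[simp] theorem ww10 : (ww : SL(2, F)) 1 0 = 1 := rfl
@[simp] theorem ww11 : (ww : SL(2, F)) 1 1 = 0 := rfl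
@[simp] theorem one00 : (1 : SL(2, F)) 0 0 = 1 := rfl
@[simp] theorem one01 : (1 : SL(2, F)) 0 1 = 0 := rfl
@[simp] theorem one10 : (1 : SL(2, F)) 1 0 = 0 := rfl
@[simp] theorem one11 : (1 : SL(2, F)) 1 1 = 1 := rfl
@[simp] theorem inv00 (g : SL(2, F)) : g⁻¹ 0 0 = g 1 1 := by rw [SpecialLinearGroup.SL2_inv_expl]; rfl
@[simp] theorem inv01 (g : SL(2, F)) : g⁻¹ 0 1 = -g 0 1 := by rw [SpecialLinearGroup.SL2_inv_expl]; rfl
@[simp] theorem inv10 (g : SL(2, F)) : g⁻¹ 1 0 = -g 1 0 := by rw [SpecialLinearGroup.SL2_inv_expl]; rfl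
@[simp] theorem inv11 (g : SL(2, F)) : g⁻¹ 1 1 = g 0 0 := by rw [SpecialLinearGroup.SL2_inv_expl]; rfl

theorem uu_mul (a b : F) : uu a * uu b = uu (a + b) := by
  apply ext2 <;> simp [mul_app, add_comm]

theorem uu_zero : uu (0 : F) = 1 := by apply ext2 <;> simp

theorem uu_sq (a : F) : uu a * uu a = 1 := by
  rw [uu_mul, ← uu_zero]; congr 1; linear_combination a * two0 (F := F)

theorem ww_sq : (ww : SL(2, F)) * ww = 1 := by apply ext2 <;> simp [mul_app]

theorem uu_ne {a : F} (ha : a ≠ 0) : uu a ≠ 1 := fun h => ha (by simpa using congrArg (fun g => g 0 1) h)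

/-- involution -/
def Invo (v : SL(2, F)) : Prop := v * v = 1 ∧ v ≠ 1

theorem Invo.tr {v : SL(2, F)} (h : Invo v) : v 1 1 = v 0 0 ∧ (v 0 1 ≠ 0 ∨ v 1 0 ≠ 0) := by
  have e00 := congrArg (fun g => g 0 0) h.1
  have e01 := congrArg (fun g => g 0 1) h.1
  have e10 := congrArg (fun g => g 1 0) h.1
  have e11 := congrArg (fun g => g 1 1) h.1
  simp only [mul_app, one00, one01, one10, one11] at e00 e01 e10 e11
  have hd := det2 v
  have h2 := two0 (F := F)
  have ht : v 1 1 = v 0 0 := by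
    have : (v 1 1 - v 0 0) ^ 2 = 0 := by
      linear_combination e11 + e00 + (-(v 0 0 * v 1 1) - v 0 1 * v 1 0 + 1) * h2
    exact sub_eq_zero.1 (pow_eq_zero_iff (two_ne_zero) |>.1 this)
  refine ⟨ht, ?_⟩
  by_contra hc
  push Not at hc
  have h1 : v 0 0 = 1 := by
    have : (v 0 0 - 1) ^ 2 = 0 := by
      rw [hc.1] at e00
      linear_combination e00 + (1 - v 0 0) * h2
    exact sub_eq_zero.1 (pow_eq_zero_iff (two_ne_zero) |>.1 this)
  exact h.2 (ext2 (by simp [h1]) (by simp [hc.1]) (by simp [hc.2]) (by simp [ht, h1]))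

theorem Invo.conj {v : SL(2, F)} (h : Invo v) (g : SL(2, F)) : Invo (g * v * g⁻¹) :=
  ⟨by
    calc g * v * g⁻¹ * (g * v * g⁻¹) = g * (v * v) * g⁻¹ := by group
      _ = 1 := by rw [h.1]; group,
   fun h1 => h.2 (by
    calc v = g⁻¹ * (g * v * g⁻¹) * g := by group
      _ = 1 := by rw [h1]; group)⟩

theorem invo_uu {a : F} (ha : a ≠ 0) : Invo (uu a) := ⟨uu_sq a, uu_ne ha⟩

theorem invo_ww : Invo (ww : SL(2, F)) :=
  ⟨ww_sq, fun h => by simpa using congrArg (fun g => g 0 0) h⟩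

theorem tr_zero_of_comm {g v : SL(2, F)} (hv : Invo v) (h : g * v = v * g) : g 0 0 + g 1 1 = 0 := by
  obtain ⟨ht, hn⟩ := hv.tr
  have e01 := congrArg (fun g => g 0 1) h
  have e10 := congrArg (fun g => g 1 0) h
  simp only [mul_app] at e01 e10
  rw [ht] at e01 e10
  have h2 := two0 (F := F)
  rcases hn with hn | hn
  · apply mul_right_cancel₀ hn
    linear_combination e01 + g 1 1 * v 0 1 * h2
  · apply mul_right_cancel₀ hn
    linear_combination e10 + g 0 0 * v 1 0 * h2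

variable [Fintype F]

theorem odd_order {g : SL(2, F)} (h : g 0 0 + g 1 1 ≠ 0) : Odd (orderOf g) := by
  classical
  by_contra hodd
  obtain ⟨k, hk⟩ := Nat.not_odd_iff_even.1 hodd
  have hpos : 0 < orderOf g := orderOf_pos g
  have hv : Invo (g ^ k) := ⟨by rw [← pow_add, ← hk, pow_orderOf_eq_one],
    pow_ne_one_of_lt_orderOf (by omega) (by omega)⟩
  exact h (tr_zero_of_comm hv (Commute.self_pow g k).eq)

theorem dihedral (K : Subgroup SL(2, F)) {v v' : SL(2, F)} (hv : v * v = 1) (hv' : v' * v' = 1) (hK : v ∈ K)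
    (hK' : v' ∈ K) (h : (v * v') 0 0 + (v * v') 1 1 ≠ 0) : ∃ s ∈ K, s * s = 1 ∧ s * v = v' * s := by
  obtain ⟨k, hk⟩ := odd_order h
  set ρ := v * v' with hρ
  have hvi : v⁻¹ = v := inv_eq_of_mul_eq_one_right hv
  have hc : v * ρ * v⁻¹ = ρ⁻¹ := by
    rw [hρ, _root_.mul_inv_rev, hvi, inv_eq_of_mul_eq_one_right hv', ← mul_assoc, hv, one_mul]
  have hck : ∀ j : ℕ, v * ρ ^ j * v⁻¹ = (ρ ^ j)⁻¹ := fun j => by rw [← conj_pow, hc, inv_pow]
  have hv'' : v' = v * ρ := by rw [hρ, ← mul_assoc, hv, one_mul]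
  refine ⟨ρ ^ k * v, K.mul_mem (K.pow_mem (K.mul_mem hK hK') k) hK, ?_, ?_⟩
  · have := hck k
    rw [hvi] at this
    calc ρ ^ k * v * (ρ ^ k * v) = ρ ^ k * (v * ρ ^ k * v) := by group
      _ = 1 := by rw [this]; group
  · have h1 := hck (k + 1)
    have h2 : ρ ^ (2 * k + 1) = 1 := by rw [← hk]; exact pow_orderOf_eq_one ρ
    have h3 : (ρ ^ (k + 1))⁻¹ = ρ ^ k := by
      rw [inv_eq_iff_mul_eq_one, ← pow_add, ← h2]; congr 1; ring
    rw [hvi, h3] at h1
    rw [mul_assoc, hv, mul_one]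
    calc ρ ^ k = v * ρ ^ (k + 1) * v := h1.symm
      _ = v * ρ * (ρ ^ k * v) := by rw [pow_succ']; group
      _ = _ := by rw [← hv'']

theorem exists_conj (K : Subgroup SL(2, F)) {v : SL(2, F)} (hv : v * v = 1) (hK : v ∈ K) {a : F}
    (ha : uu a ∈ K) (ha0 : a ≠ 0) (ht : v 1 1 = v 0 0) (h : v 1 0 ≠ 0) :
    ∃ s ∈ K, s * s = 1 ∧ s * uu a = v * s := by
  refine dihedral K (uu_sq a) hv ha hK ?_
  simp only [mul_app, uu00, uu01, uu10, uu11, ht]
  intro h0
  apply mul_ne_zero ha0 h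
  linear_combination h0 - v 0 0 * two0 (F := F)

theorem Invo.eq_uu {v : SL(2, F)} (hv : Invo v) (h : v 1 0 = 0) : v = uu (v 0 1) := by
  have hd := det2 v
  have ht := hv.tr.1
  have h1 : v 0 0 = 1 := by
    have : (v 0 0 - 1) ^ 2 = 0 := by
      rw [h, ht] at hd
      linear_combination hd + (1 - v 0 0) * two0 (F := F)
    exact sub_eq_zero.1 (pow_eq_zero_iff (two_ne_zero) |>.1 this)
  exact ext2 (by simp [h1]) (by simp) (by simp [h]) (by simp [ht, h1])

theorem comm_uu {x : SL(2, F)} (h : x * uu 1 = uu 1 * x) : x = uu (x 0 1) := by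
  have e00 := congrArg (fun g => g 0 0) h
  have ht := tr_zero_of_comm (invo_uu one_ne_zero) h
  simp only [mul_app, uu00, uu01, uu10, uu11] at e00
  have h10 : x 1 0 = 0 := by linear_combination -e00
  have hd := det2 x
  have h2 := two0 (F := F)
  have h11 : x 1 1 = x 0 0 := by linear_combination ht - x 0 0 * h2
  have h1 : x 0 0 = 1 := by
    have : (x 0 0 - 1) ^ 2 = 0 := by
      rw [h10, h11] at hd
      linear_combination hd + (1 - x 0 0) * h2
    exact sub_eq_zero.1 (pow_eq_zero_iff (two_ne_zero) |>.1 this)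
  exact ext2 (by simp [h1]) (by simp) (by simp [h10]) (by simp [h11, h1])

/-- the element of order three -/
def rr : SL(2, F) := uu 1 * ww

theorem rr_tr : (rr : SL(2, F)) 0 0 + (rr : SL(2, F)) 1 1 = 1 := by simp [rr, mul_app]

section CaseA

variable {K : Subgroup SL(2, F)} (hu : uu 1 ∈ K) (hQ : ∀ a : F, uu a ∈ K → a = 0 ∨ a = 1)
include hu hQ

theorem caseA_conj {v : SL(2, F)} (hv : Invo v) (hK : v ∈ K) : ∃ k ∈ K, v = k * uu 1 * k⁻¹ := by
  by_cases h : v 1 0 = 0
  · have e := hv.eq_uu h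
    rcases hQ (v 0 1) (e ▸ hK) with h0 | h1
    · rw [h0, uu_zero] at e; exact absurd e hv.2
    · exact ⟨1, K.one_mem, by rw [e, h1]; simp⟩
  · obtain ⟨s, hs, -, h2⟩ := exists_conj K hv.1 hK hu one_ne_zero hv.tr.1 h
    exact ⟨s, hs, by rw [h2]; group⟩

theorem caseA_split {g : SL(2, F)} (hg : g ∈ K) : Invo g ∨ Invo (uu 1 * g) := by
  classical
  let S : Finset SL(2, F) := Finset.univ.filter (· ∈ K)
  let I : Finset SL(2, F) := Finset.univ.filter (fun v => v ∈ K ∧ Invo v)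
  have h1 : S.card ≤ 2 * I.card := by
    refine Finset.card_le_mul_card_image_of_maps_to (f := fun g => g * uu 1 * g⁻¹) (fun g hg => ?_) 2
      (fun b _ => ?_)
    · simp only [S, I, Finset.mem_filter, Finset.mem_univ, true_and] at hg ⊢
      exact ⟨K.mul_mem (K.mul_mem hg hu) (K.inv_mem hg), (invo_uu one_ne_zero).conj g⟩
    · rcases (S.filter fun g => g * uu 1 * g⁻¹ = b).eq_empty_or_nonempty with he | ⟨g0, hg0⟩
      · simp [he]
      · refine (Finset.card_le_card (t := {g0, g0 * uu 1}) fun g hg => ?_).trans Finset.card_le_two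
        simp only [S, Finset.mem_filter, Finset.mem_univ, true_and] at hg hg0
        have hc : (g0⁻¹ * g) * uu 1 = uu 1 * (g0⁻¹ * g) := by
          calc (g0⁻¹ * g) * uu 1 = g0⁻¹ * (g * uu 1 * g⁻¹) * g := by group
            _ = g0⁻¹ * (g0 * uu 1 * g0⁻¹) * g := by rw [hg.2, hg0.2]
            _ = _ := by group
        have e := comm_uu hc
        have hm : g0⁻¹ * g ∈ K := K.mul_mem (K.inv_mem hg0.1) hg.1
        simp only [Finset.mem_insert, Finset.mem_singleton]
        rcases hQ _ (e ▸ hm) with h0 | h0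
        · rw [h0, uu_zero] at e
          left; rw [inv_mul_eq_one] at e; exact e.symm
        · rw [h0] at e
          right; rw [← e]; group
  have hdis : Disjoint I (I.image fun v => uu 1 * v) := by
    rw [Finset.disjoint_left]
    intro x hx hx'
    obtain ⟨v, hv, rfl⟩ := Finset.mem_image.1 hx'
    simp only [I, Finset.mem_filter, Finset.mem_univ, true_and] at hx hv
    have t1 := hx.2.tr.1
    have t2 := hv.2.tr.1
    simp only [mul_app, uu00, uu01, uu10, uu11] at t1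
    have h10 : v 1 0 = 0 := by linear_combination t2 - t1
    have e := hv.2.eq_uu h10
    rcases hQ (v 0 1) (e ▸ hv.1) with h0 | h0
    · rw [h0, uu_zero] at e; exact hv.2.2 e
    · rw [h0] at e; exact hx.2.2 (by rw [e, uu_sq])
  have hsub : I ∪ (I.image fun v => uu 1 * v) ⊆ S := by
    intro x hx
    simp only [S, I, Finset.mem_union, Finset.mem_image, Finset.mem_filter, Finset.mem_univ, true_and] at hx ⊢
    rcases hx with hx | ⟨v, hv, rfl⟩
    · exact hx.1
    · exact K.mul_mem hu hv.1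
  have hcard : S.card ≤ (I ∪ (I.image fun v => uu 1 * v)).card := by
    rw [Finset.card_union_of_disjoint hdis, Finset.card_image_of_injective _ (mul_right_injective _)]
    omega
  have heq := Finset.eq_of_subset_of_card_le hsub hcard
  have hgS : g ∈ S := by simp [S, hg]
  rw [← heq] at hgS
  simp only [I, Finset.mem_union, Finset.mem_image, Finset.mem_filter, Finset.mem_univ, true_and] at hgS
  rcases hgS with h | ⟨v, hv, rfl⟩
  · exact Or.inl h.2
  · right; rw [← mul_assoc, uu_sq, one_mul]; exact hv.2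

theorem caseA_inv (hw : ww ∈ K) {v : SL(2, F)} (hv : Invo v) (hK : v ∈ K) : v * rr * v = rr⁻¹ := by
  obtain ⟨k, hk, rfl⟩ := caseA_conj hu hQ hv hK
  have hr : (rr : SL(2, F)) ∈ K := K.mul_mem hu hw
  rcases caseA_split hu hQ (K.mul_mem (K.mul_mem (K.inv_mem hk) hr) hk) with h | h
  · have h1 := h.conj k
    have h2 : k * (k⁻¹ * rr * k) * k⁻¹ = rr := by group
    rw [h2] at h1
    have h3 := h1.tr.1
    have h4 := rr_tr (F := F)
    rw [h3] at h4
    exact absurd (by linear_combination rr 0 0 * two0 (F := F) - h4 : (1 : F) = 0) one_ne_zero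
  · have h1 := (h.conj k).1
    rw [eq_inv_iff_mul_eq_one, ← h1]
    group

theorem caseA (hw : ww ∈ K) {g : SL(2, F)} (hg : g ∈ K) : g * rr = rr * g ∨ g * ww * rr = rr * (g * ww) := by
  have hr : ∀ v, Invo v → v ∈ K → v * rr = rr⁻¹ * v ∧ v * rr⁻¹ = rr * v := fun v hv hK => by
    have h := caseA_inv hu hQ hw hv hK
    have hi : v⁻¹ = v := inv_eq_of_mul_eq_one_right hv.1
    refine ⟨by rw [← h, mul_assoc _ v v, hv.1, mul_one], ?_⟩
    rw [← h, ← mul_assoc, ← mul_assoc, hv.1, one_mul]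
  rcases caseA_split hu hQ hg with h | h
  · right
    rw [mul_assoc, (hr _ invo_ww hw).1, ← mul_assoc, (hr g h hg).2, mul_assoc]
  · left
    have e : g = uu 1 * (uu 1 * g) := by rw [← mul_assoc, uu_sq, one_mul]
    rw [e, mul_assoc, (hr _ h (K.mul_mem hu hg)).1, ← mul_assoc, (hr _ (invo_uu one_ne_zero) hu).2, mul_assoc]

end CaseA

end Vale.Agent.P183
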