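import Vale.Agent.P183.CaseB

/-!
# P183: the torus centralizing the element of order three, dihedral groups, fixed fields
-/

open Matrix MatrixGroups

namespace Vale.Agent.P183

variable {F : Type} [Field F] [CharP F 2] {ω : F} (hω : ω ^ 2 + ω + 1 = 0)

/-- the torus element with eigenvalues `l`, `l⁻¹` -/
def ph0 (l : Fˣ) : SL(2, F) :=
  ⟨!![(l : F) * ω + (l⁻¹ : Fˣ) * ω ^ 2, l + (l⁻¹ : Fˣ); l + (l⁻¹ : Fˣ), l * ω ^ 2 + (l⁻¹ : Fˣ) * ω], by
    have h1 : (l : F) * (l⁻¹ : Fˣ) = 1 := l.mul_inv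
    have h2 := two0 (F := F)
    simp only [det_fin_two, of_apply, cons_val', cons_val_zero, cons_val_one, cons_val_fin_one]
    grind⟩

theorem ph00 (l : Fˣ) : ph0 hω l 0 0 = (l : F) * ω + (l⁻¹ : Fˣ) * ω ^ 2 := rfl
theorem ph01 (l : Fˣ) : ph0 hω l 0 1 = (l : F) + (l⁻¹ : Fˣ) := rfl
theorem ph10 (l : Fˣ) : ph0 hω l 1 0 = (l : F) + (l⁻¹ : Fˣ) := rfl
theorem ph11 (l : Fˣ) : ph0 hω l 1 1 = (l : F) * ω ^ 2 + (l⁻¹ : Fˣ) * ω := rfl

/-- the torus as a homomorphism -/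
def ph : Fˣ →* SL(2, F) where
  toFun := ph0 hω
  map_one' := by
    have h2 := two0 (F := F)
    apply ext2 <;> simp only [ph00, ph01, ph10, ph11, one00, one01, one10, one11, inv_one, Units.val_one] <;> grind
  map_mul' l m := by
    have h2 := two0 (F := F)
    apply ext2 <;> simp only [ph00, ph01, ph10, ph11, mul_app, mul_inv, Units.val_mul] <;> grind

theorem ph_apply (l : Fˣ) : ph hω l = ph0 hω l := rfl

theorem ph_rec (l : Fˣ) : (l : F) = ph hω l 1 1 + ph hω l 1 0 * ω ∧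
    ((l⁻¹ : Fˣ) : F) = ph hω l 1 1 + ph hω l 1 0 * ω ^ 2 := by
  have h2 := two0 (F := F)
  simp only [ph_apply, ph10, ph11]
  constructor <;> grind

theorem ph_inj : Function.Injective (ph hω) := fun l m h => by
  apply Units.ext
  rw [(ph_rec hω l).1, (ph_rec hω m).1, h]

theorem ww_ph (l : Fˣ) : ww * ph hω l = ph hω l⁻¹ * ww := by
  apply ext2 <;> simp only [ph_apply, ph00, ph01, ph10, ph11, mul_app, ww00, ww01, ww10, ww11, inv_inv] <;> ring

theorem exists_ph {g : SL(2, F)} (h : g * rr = rr * g) : ∃ l, g = ph hω l := by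
  have e00 := congrArg (fun g => g 0 0) h
  have e01 := congrArg (fun g => g 0 1) h
  simp only [rr, mul_app, uu00, uu01, uu10, uu11, ww00, ww01, ww10, ww11] at e00 e01
  have hd := det2 g
  have h2 := two0 (F := F)
  have hu : (g 1 1 + g 1 0 * ω) * (g 1 1 + g 1 0 * ω ^ 2) = 1 := by grind
  refine ⟨⟨_, _, hu, by rw [mul_comm]; exact hu⟩, ?_⟩
  apply ext2 <;> simp only [ph_apply, ph00, ph01, ph10, ph11, Units.inv_mk] <;> grind

/-- `ω` as a unit -/
def om : Fˣ := ⟨ω, ω ^ 2, by grind, by grind⟩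

theorem ph_om : ph hω (om hω) = rr := by
  have h2 := two0 (F := F)
  apply ext2 <;> simp only [ph_apply, ph00, ph01, ph10, ph11, om, Units.inv_mk, rr, mul_app, uu00, uu01, uu10,
    uu11, ww00, ww01, ww10, ww11] <;> grind

theorem om_order : orderOf (om hω) = 3 := by
  refine orderOf_eq_prime (Units.ext ?_) fun h => ?_
  · simp only [om, Units.val_pow_eq_pow_val, Units.val_one]; grind
  · have h1 : ω = 1 := congrArg Units.val h
    have h2 := two0 (F := F)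
    grind

/-- dihedral group over the `d`-torsion of the torus -/
def DD (d : ℕ) : Subgroup SL(2, F) where
  carrier := {g | ∃ l : Fˣ, l ^ d = 1 ∧ (g = ph hω l ∨ g = ph hω l * ww)}
  one_mem' := ⟨1, one_pow d, Or.inl (map_one _).symm⟩
  mul_mem' := by
    rintro _ _ ⟨l, hl, rfl | rfl⟩ ⟨m, hm, rfl | rfl⟩
    · exact ⟨l * m, by rw [mul_pow, hl, hm, one_mul], Or.inl (map_mul _ _ _).symm⟩
    · exact ⟨l * m, by rw [mul_pow, hl, hm, one_mul], Or.inr (by rw [map_mul, mul_assoc])⟩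
    · exact ⟨l * m⁻¹, by rw [mul_pow, inv_pow, hl, hm, inv_one, one_mul],
        Or.inr (by rw [map_mul, mul_assoc, ww_ph, mul_assoc])⟩
    · exact ⟨l * m⁻¹, by rw [mul_pow, inv_pow, hl, hm, inv_one, one_mul],
        Or.inl (by rw [map_mul, mul_assoc, ← mul_assoc ww, ww_ph, mul_assoc, ww_sq, mul_one])⟩
  inv_mem' := by
    rintro _ ⟨l, hl, rfl | rfl⟩
    · exact ⟨l⁻¹, by rw [inv_pow, hl, inv_one], Or.inl (map_inv _ _).symm⟩
    · refine ⟨l, hl, Or.inr ?_⟩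
      rw [inv_eq_iff_mul_eq_one, mul_assoc, ← mul_assoc ww, ww_ph, mul_assoc, ww_sq, mul_one, ← map_mul,
        mul_inv_cancel, map_one]

theorem ww_mem_DD (d : ℕ) : ww ∈ DD hω d := ⟨1, one_pow d, Or.inr (by rw [map_one, one_mul])⟩

theorem ph_ne_ww (l : Fˣ) : ph hω l ≠ ww := fun h => by
  have e00 := congrArg (fun g => g 0 0) h
  have e10 := congrArg (fun g => g 1 0) h
  have e11 := congrArg (fun g => g 1 1) h
  simp only [ph_apply, ph00, ph10, ph11, ww00, ww10, ww11] at e00 e10 e11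
  have h2 := two0 (F := F)
  grind

theorem ph_mem_DD {d : ℕ} {l : Fˣ} : ph hω l ∈ DD hω d ↔ l ^ d = 1 := by
  refine ⟨?_, fun h => ⟨l, h, Or.inl rfl⟩⟩
  rintro ⟨m, hm, h | h⟩
  · rw [ph_inj hω h]; exact hm
  · exact absurd (by rw [map_mul, map_inv, h]; group) (ph_ne_ww hω (m⁻¹ * l))

theorem uu_mem_DD {d : ℕ} (hd : 3 ∣ d) {a : F} : uu a ∈ DD hω d ↔ a ^ 2 ^ 1 = a := by
  have h2 := two0 (F := F)
  constructor
  · rintro ⟨m, -, h | h⟩
    · have e01 := congrArg (fun g => g 0 1) h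
      have e10 := congrArg (fun g => g 1 0) h
      simp only [ph_apply, ph01, ph10, uu01, uu10] at e01 e10
      rw [e01, ← e10]; simp
    · have e00 := congrArg (fun g => g 0 0) h
      have e01 := congrArg (fun g => g 0 1) h
      have e10 := congrArg (fun g => g 1 0) h
      simp only [ph_apply, mul_app, ph00, ph01, ph10, ph11, uu00, uu01, uu10, ww00, ww01, ww10, ww11]
        at e00 e01 e10
      have : a = 1 := by grind
      rw [this]; simp
  · intro h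
    have : a = 0 ∨ a = 1 := by grind
    rcases this with rfl | rfl
    · rw [uu_zero]; exact Subgroup.one_mem _
    · refine ⟨om hω, orderOf_dvd_iff_pow_eq_one.1 (by rw [om_order]; exact hd), Or.inr ?_⟩
      rw [ph_om, rr, mul_assoc, ww_sq, mul_one]

theorem DD_le {d : ℕ} {K : Subgroup SL(2, F)} (hw : ww ∈ K) (h : ∀ l : Fˣ, l ^ d = 1 → ph hω l ∈ K) :
    DD hω d ≤ K := by
  rintro _ ⟨l, hl, rfl | rfl⟩
  · exact h l hl
  · exact K.mul_mem (h l hl) hw

/-- the fixed field of the `e`-th power of Frobenius -/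
def Fx (F : Type) [Field F] [CharP F 2] (e : ℕ) : Subfield F :=
  RingHom.eqLocusField (iterateFrobenius F 2 e) (RingHom.id F)

theorem mem_Fx {e : ℕ} {x : F} : x ∈ Fx F e ↔ x ^ 2 ^ e = x := by
  simp [Fx, RingHom.mem_eqLocusField, iterateFrobenius_def]

theorem ph_mem_SQ {Q : Subfield F} {l : Fˣ} : ph hω l ∈ SQ Q ↔ ph hω l 1 1 ∈ Q ∧ ph hω l 1 0 ∈ Q := by
  refine ⟨fun h => ⟨h.2.2.2, h.2.2.1⟩, fun h => ⟨?_, h.2, h.2, h.1⟩⟩
  have : ph hω l 0 0 = ph hω l 1 1 + ph hω l 1 0 := by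
    have h2 := two0 (F := F)
    simp only [ph_apply, ph00, ph10, ph11]
    grind
  rw [this]; exact Q.add_mem h.1 h.2

theorem ph_mem_F4 {l : Fˣ} : ph hω l ∈ SQ (Fx F 2) ↔ l ^ 3 = 1 := by
  have hw : ω ∈ Fx F 2 := by rw [mem_Fx]; grind
  have h1 : (l : F) * (l⁻¹ : Fˣ) = 1 := l.mul_inv
  rw [ph_mem_SQ, Units.ext_iff, Units.val_pow_eq_pow_val, Units.val_one]
  constructor
  · rintro ⟨ha, hb⟩
    have : (l : F) ∈ Fx F 2 := by
      rw [(ph_rec hω l).1]; exact Subfield.add_mem _ ha (Subfield.mul_mem _ hb hw)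
    rw [mem_Fx] at this
    grind
  · intro h
    have a1 : (l : F) ∈ Fx F 2 := by rw [mem_Fx]; grind
    have a2 : ((l⁻¹ : Fˣ) : F) ∈ Fx F 2 := by rw [Units.val_inv_eq_inv_val]; exact Subfield.inv_mem _ a1
    exact ⟨Subfield.add_mem _ (Subfield.mul_mem _ a1 (Subfield.pow_mem _ hw 2)) (Subfield.mul_mem _ a2 hw),
      Subfield.add_mem _ a1 a2⟩

theorem ph_mem_F8 {l : Fˣ} : ph hω l ∈ SQ (Fx F 3) ↔ l ^ 9 = 1 := by
  have h1 : (l : F) * (l⁻¹ : Fˣ) = 1 := l.mul_inv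
  have hw : ω ^ 2 ^ 3 = ω ^ 2 := by grind
  have hw2 : (ω ^ 2) ^ 2 ^ 3 = ω := by grind
  rw [ph_mem_SQ, Units.ext_iff, Units.val_pow_eq_pow_val, Units.val_one, mem_Fx, mem_Fx]
  constructor
  · rintro ⟨ha, hb⟩
    have : (l : F) ^ 2 ^ 3 = (l⁻¹ : Fˣ) := by
      rw [(ph_rec hω l).1, (ph_rec hω l).2, add_pow_char_pow, mul_pow, ha, hb, hw]
    grind
  · intro h
    have a1 : (l : F) ^ 2 ^ 3 = (l⁻¹ : Fˣ) := by grind
    have a2 : ((l⁻¹ : Fˣ) : F) ^ 2 ^ 3 = l := by grind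
    simp only [ph_apply, ph10, ph11, add_pow_char_pow, mul_pow, a1, a2, hw, hw2]
    constructor <;> ring

end Vale.Agent.P183
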